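import Vale.Agent.P139.R2.H556.Defs

/-!
# P139 (row R10b): the deterministic core of the assembly
-/

set_option autoImplicit false

open MvPolynomial Finset
open scoped ComplexConjugate ENNReal

namespace Vale.Agent.P139.BN

open Vale.Agent.P139.A Vale.Agent.P139.A.WA

variable {d k : ℕ}

/-- A constant phase factor preserves solutions. -/
theorem isSolution_phase {p k : ℕ} {T : ℝ} {u : ℝ → Lat d → ℂ} (h : IsSolution d p k T u) {ζ : ℂ}
    (hζ : ‖ζ‖ = 1) : IsSolution d p k T (fun t n => ζ * u t n) where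
  mem := by
    intro t ht
    have h1 := h.mem t ht
    unfold MemSobolev at h1 ⊢
    simpa [norm_mul, hζ] using h1
  cont := by
    intro t ht
    have h1 := h.cont t ht
    refine h1.congr fun s => ?_
    unfold sobolevSq
    refine tsum_congr fun n => ?_
    show (1 + sqNorm n) ^ k * ‖u s n - u t n‖ ^ 2 = (1 + sqNorm n) ^ k * ‖ζ * u s n - ζ * u t n‖ ^ 2
    rw [← mul_sub, norm_mul, hζ, one_mul]
  eqn := by
    intro t ht n
    obtain ⟨v, hv, he⟩ := h.eqn t ht n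
    refine ⟨ζ * v, hv.const_mul ζ, ?_⟩
    have h1 : ∀ x, series (fun n => ζ * u t n) x = ζ * series (u t) x := by
      intro x
      unfold series
      rw [← tsum_mul_left]
      exact tsum_congr fun n => by ring
    have h2 : (fun x => (‖series (fun n => ζ * u t n) x‖ : ℂ) ^ (p - 1) *
        series (fun n => ζ * u t n) x) =
        fun x => ζ * ((‖series (u t) x‖ : ℂ) ^ (p - 1) * series (u t) x) := by
      funext x
      rw [h1, norm_mul, hζ, one_mul]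
      ring
    rw [h2]
    have h3 : fourierCoef (fun x => ζ * ((‖series (u t) x‖ : ℂ) ^ (p - 1) * series (u t) x)) n =
        ζ * fourierCoef (fun x => (‖series (u t) x‖ : ℂ) ^ (p - 1) * series (u t) x) n := by
      unfold fourierCoef
      rw [show (fun x => ζ * ((‖series (u t) x‖ : ℂ) ^ (p - 1) * series (u t) x) * expi (-n) x) =
        fun x => ζ * (((‖series (u t) x‖ : ℂ) ^ (p - 1) * series (u t) x) * expi (-n) x) by
          funext x; ring]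
      rw [MeasureTheory.integral_const_mul]
      ring
    rw [h3, ← he]
    ring

/-- The summability constant of the polynomial weight against `W (k + 1)`. -/
noncomputable def SS (d k : ℕ) : ℝ :=
  Real.sqrt (4 ^ (k + d + 1) * ∑' n : Lat d, (A.W (2 * d) n)⁻¹)

theorem SS_nonneg (d k : ℕ) : 0 ≤ SS d k := Real.sqrt_nonneg _

theorem pw_ge (n : Lat d) (q : ℕ) : A.W (2 * q) n ≤ 2 ^ q * (1 + sqNorm n) ^ q := by
  unfold A.W
  rw [pow_mul, ← mul_pow]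
  refine pow_le_pow_left₀ (by positivity) ?_ q
  have := sup_sq_le n
  nlinarith [sq_nonneg (‖n‖ - 1)]

theorem ratio_le (n : Lat d) (k : ℕ) :
    (A.W (k + 1) n / (1 + sqNorm n) ^ (k + d + 1)) ^ 2 ≤
      4 ^ (k + d + 1) * (A.W (2 * d) n)⁻¹ := by
  have h0 := sqNorm_nonneg n
  have h1 := pw_ge n (k + d + 1)
  have hp : 0 < (1 + sqNorm n) ^ (k + d + 1) := by positivity
  have hW1 : 0 < A.W (k + 1) n := A.W_pos n
  have hW2 : 0 < A.W (2 * d) n := A.W_pos n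
  have h2 : A.W (k + 1) n * A.W (2 * d) n ≤ A.W (2 * (k + d + 1)) n := by
    unfold A.W
    rw [← pow_add]
    refine pow_le_pow_right₀ ?_ (by omega)
    linarith [norm_nonneg n]
  have h3 : A.W (k + 1) n / (1 + sqNorm n) ^ (k + d + 1) ≤
      2 ^ (k + d + 1) * (A.W (2 * d) n)⁻¹ := by
    rw [div_le_iff₀ hp]
    rw [← div_eq_mul_inv, div_mul_eq_mul_div, le_div_iff₀ hW2]
    exact h2.trans h1
  have h4 : 0 ≤ A.W (k + 1) n / (1 + sqNorm n) ^ (k + d + 1) := by positivity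
  calc (A.W (k + 1) n / (1 + sqNorm n) ^ (k + d + 1)) ^ 2
      ≤ (2 ^ (k + d + 1) * (A.W (2 * d) n)⁻¹) ^ 2 := pow_le_pow_left₀ h4 h3 2
    _ = 4 ^ (k + d + 1) * ((A.W (2 * d) n)⁻¹ * (A.W (2 * d) n)⁻¹) := by
        rw [mul_pow, ← pow_mul, mul_comm (k + d + 1) 2, pow_mul]
        norm_num
        ring
    _ ≤ 4 ^ (k + d + 1) * ((A.W (2 * d) n)⁻¹ * 1) := by
        have : (A.W (2 * d) n)⁻¹ ≤ 1 := inv_le_one_of_one_le₀ (A.one_le_W n)
        gcongr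
    _ = _ := by rw [mul_one]

/-- The `WA`-type norm is controlled by the weighted `ℓ²` norm. -/
theorem sum_le_nL (B : Finset (Lat d)) (W : Lat d → ℝ) (hW : ∀ n, 1 ≤ W n) (a : Lat d → ℂ) (k : ℕ) :
    ∑ n ∈ B, A.W (k + 1) n * ‖a n‖ ≤
      SS d k * nL B (fun n => W n * (1 + sqNorm n) ^ (k + d + 1)) a := by
  have hs : Summable fun n : Lat d => (A.W (2 * d) n)⁻¹ := A.summable_W_inv d
  have h1 : ∑ n ∈ B, A.W (k + 1) n * ‖a n‖ ≤
      ∑ n ∈ B, (A.W (k + 1) n / (1 + sqNorm n) ^ (k + d + 1)) *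
        (W n * (1 + sqNorm n) ^ (k + d + 1) * ‖a n‖) := by
    refine Finset.sum_le_sum fun n _ => ?_
    have hp : 0 < (1 + sqNorm n) ^ (k + d + 1) := by
      have := sqNorm_nonneg n
      positivity
    have e : (A.W (k + 1) n / (1 + sqNorm n) ^ (k + d + 1)) *
        (W n * (1 + sqNorm n) ^ (k + d + 1) * ‖a n‖) = W n * (A.W (k + 1) n * ‖a n‖) := by
      field_simp
    rw [e]
    have h0 : 0 ≤ A.W (k + 1) n * ‖a n‖ := mul_nonneg (A.W_pos n).le (norm_nonneg _)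
    nlinarith [hW n]
  refine h1.trans ?_
  refine (Real.sum_mul_le_sqrt_mul_sqrt _ _ _).trans ?_
  unfold nL SS
  refine mul_le_mul (Real.sqrt_le_sqrt ?_) le_rfl (Real.sqrt_nonneg _) (Real.sqrt_nonneg _)
  calc ∑ n ∈ B, (A.W (k + 1) n / (1 + sqNorm n) ^ (k + d + 1)) ^ 2
      ≤ ∑ n ∈ B, 4 ^ (k + d + 1) * (A.W (2 * d) n)⁻¹ :=
        Finset.sum_le_sum fun n _ => ratio_le n k
    _ = 4 ^ (k + d + 1) * ∑ n ∈ B, (A.W (2 * d) n)⁻¹ := by rw [Finset.mul_sum]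
    _ ≤ _ := by
        have : ∑ n ∈ B, (A.W (2 * d) n)⁻¹ ≤ ∑' n : Lat d, (A.W (2 * d) n)⁻¹ :=
          hs.sum_le_tsum B fun n _ => (inv_pos.2 (A.W_pos n)).le
        gcongr

theorem W_mono (n : Lat d) : A.W k n ≤ A.W (k + 1) n := by
  unfold A.W
  exact pow_le_pow_right₀ (by linarith [norm_nonneg n]) (by omega)

theorem norm_le_sum {B : Finset (Lat d)} {a : WA d k} (h : ∀ n, n ∉ B → coef a n = 0) :
    ‖a‖ ≤ ∑ n ∈ B, A.W (k + 1) n * ‖coef a n‖ := by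
  rw [norm_eq, tsum_eq_sum (s := B) fun n hn => by rw [h n hn, norm_zero, mul_zero]]
  exact Finset.sum_le_sum fun n _ => mul_le_mul_of_nonneg_right (W_mono n) (norm_nonneg _)

theorem zero_notMem_box (d L : ℕ) : (0 : Lat d) ∉ box d L := by
  unfold box
  simp

theorem neg_mem_box {L : ℕ} {n : Lat d} (h : n ∈ box d L) : -n ∈ box d L := by
  unfold box at h ⊢
  simp only [Finset.mem_erase, Fintype.mem_piFinset, Finset.mem_Icc, ne_eq, neg_eq_zero,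
    Pi.neg_apply] at h ⊢
  refine ⟨h.1, fun i => ?_⟩
  have := h.2 i
  omega

/-- **The deterministic core.** -/
theorem core (hDyn : DynThm d) (hHam : HamThm d) {m : ℕ} (hm : 1 ≤ m) (hLim : LimThm d k m)
    {ρ₀ : ℝ} (hρ : 0 < ρ₀) :
    ∃ (a : ℕ) (A₀ ε₀ : ℝ), 1 ≤ A₀ ∧ 0 < ε₀ ∧
    ∀ (N J : ℕ), J = 3 * N + 2 * m + 6 → ∀ (A κ γ S θ : ℝ) (R : ℕ), A = A₀ ^ (N + 1) → 1 ≤ κ →
    0 < γ → γ ≤ 1 → 1 ≤ S →
    ∀ (W : Lat d → ℝ), (∀ n, 1 ≤ W n) → (∀ n, W (-n) = W n) → (∀ a b, W (a + b) ≤ W a * W b) →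
    ∀ (w₀ : WA d k), coef w₀ 0 = 0 → ‖w₀‖ ≤ ε₀ →
    (∀ L : ℕ, ∃ lev : {n // n ∈ box d L} → ℕ, Modes {n // n ∈ box d L} d J κ γ R θ S
      (fun n => n.1) lev (fun n => Om (m * (ρ₀ ^ 2 + H836.mass w₀) ^ m) n.1) (fun n => W n.1)
      (fun n => (1 + sqNorm n.1) ^ (k + d + 1))) →
    ∀ η : ℝ, 0 < η →
    (∀ L : ℕ, nL (box d L) (fun n => W n * (1 + sqNorm n) ^ (k + d + 1)) (coef w₀) ≤ η) →
    Cst a J A κ S γ * (A * η) ≤ 1 → θ ≤ (A * η) ^ N → SS d k * (A * (2 * (A * η))) ≤ ε₀ →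
    ∀ T : ℝ, 0 ≤ T → T * (Cst a J A κ S γ * (A * η) ^ N) ≤ 1 →
    ∃ u : ℝ → WA d k, u 0 = cst ρ₀ + w₀ ∧
      IsSolution d (2 * m + 1) k T (fun t => coef (u t)) := by
  obtain ⟨a, hDyn⟩ := hDyn
  obtain ⟨A₀, δ, hA₀, hδ, hHam⟩ := hHam m (k + d + 1) ρ₀ hm (by omega) (by omega) hρ
  obtain ⟨r, δ', hr, hδ', hLim⟩ := hLim ρ₀ hρ
  refine ⟨a, A₀, min (r / 2) δ, hA₀, by positivity, ?_⟩
  intro N J hJ A κ γ S θ R hA hκ hγ hγ1 hS W hW1 hWn hWs w₀ hw0 hwn hM η hη hdat hc1 hc2 hc3 T hT hc4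
  have hA1 : 1 ≤ A := by rw [hA]; exact one_le_pow₀ hA₀
  have hA0 : 0 < A := by linarith
  have hmass0 := H836.mass_nonneg w₀
  have hwr : ‖w₀‖ ≤ r / 2 := hwn.trans (min_le_left _ _)
  have hwδ : ‖w₀‖ ≤ δ := hwn.trans (min_le_right _ _)
  have he : |Real.sqrt (ρ₀ ^ 2 + H836.mass w₀) - ρ₀| ≤ δ := by
    have h1 : Real.sqrt (ρ₀ ^ 2 + H836.mass w₀) ≤ ρ₀ + ‖w₀‖ := by
      rw [Real.sqrt_le_left (by positivity)]
      have := H836.mass_le w₀
      nlinarith [norm_nonneg w₀]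
    have h2 : ρ₀ ≤ Real.sqrt (ρ₀ ^ 2 + H836.mass w₀) := by
      apply Real.le_sqrt_of_sq_le
      linarith
    rw [abs_of_nonneg (by linarith)]
    linarith
  refine hLim ρ₀ (by simp [hδ'.le]) w₀ hw0 hwr T (r / 2) hT fun L T' hT' w hw hinit hwR => ?_
  -- the Hamiltonian structure
  obtain ⟨H, hH0, hHc, hHz, hHr, hHd⟩ := hHam N (2 * N + 2 * m + 2) A rfl hA k ρ₀ (H836.mass w₀) hρ
    hmass0 he (box d L) (fun n hn => neg_mem_box hn) (zero_notMem_box d L) W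
    (fun n => (1 + sqNorm n) ^ (k + d + 1)) hW1 hWn hWs (fun n => rfl)
  obtain ⟨z, ρ, hode, hrem, heq⟩ := hHd T' w hw
  obtain ⟨lev, hmod⟩ := hM L
  have hT0' : (0 : ℝ) ∈ Set.Icc 0 T' := ⟨le_rfl, hT'.1⟩
  have hz0 : nw (fun n : {n // n ∈ box d L} => W n.1 * (1 + sqNorm n.1) ^ (k + d + 1))
      (pt (z 0)) ≤ A * η := by
    refine ((heq 0 hT0').1).trans (mul_le_mul_of_nonneg_left ?_ hA0.le)
    have e1 : nL (box d L) (fun n => W n * (1 + sqNorm n) ^ (k + d + 1)) (coef (w 0)) =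
        nL (box d L) (fun n => W n * (1 + sqNorm n) ^ (k + d + 1)) (coef w₀) := by
      unfold nL
      congr 1
      exact Finset.sum_congr rfl fun n hn => by rw [hinit n hn]
    rw [e1]
    exact hdat L
  have hT'c : T' * (Cst a J A κ S γ * (A * η) ^ N) ≤ 1 := by
    refine le_trans (mul_le_mul_of_nonneg_right hT'.2 ?_) hc4
    have : 0 ≤ Cst a J A κ S γ := by unfold Cst; positivity
    positivity
  have hdyn := hDyn N J (2 * N + 2 * m + 2) (by omega) A κ γ S hA1 hκ hγ hγ1 hS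
    {n // n ∈ box d L} R θ (fun n => n.1) lev _ _ _ hmod H hH0 hHc hHz hHr (A * η) T'
    (by positivity) hT'.1 hc1 hc2 hT'c z ρ hode hrem hz0
  intro t ht
  have hsum : ∑ n ∈ box d L, Vale.Agent.P139.A.W (k + 1) n * ‖coef (w t) n‖ ≤ r / 2 := by
    refine (sum_le_nL (box d L) W hW1 (coef (w t)) k).trans ?_
    have h1 := (heq t ht).2
    have h2 := hdyn t ht
    have h3 : nL (box d L) (fun n => W n * (1 + sqNorm n) ^ (k + d + 1)) (coef (w t)) ≤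
        A * (2 * (A * η)) := h1.trans (mul_le_mul_of_nonneg_left h2 hA0.le)
    exact (mul_le_mul_of_nonneg_left h3 (SS_nonneg d k)).trans (hc3.trans (min_le_left _ _))
  exact ⟨(norm_le_sum (hw.supp t ht)).trans hsum, hsum⟩

end Vale.Agent.P139.BN
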