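import Mathlib.Analysis.Complex.ExponentialBounds
import Vale.Agent.P139.R2.H182.FinA

/-!
# P139 (row R10b): the numerical inequalities of the assembly
-/

set_option autoImplicit false

open Finset Filter Topology

namespace Vale.Agent.P139.BN

theorem exists_le_two_pow (x : ℝ) : ∃ b : ℕ, x ≤ 2 ^ b := by
  obtain ⟨b, hb⟩ := pow_unbounded_of_one_lt x (by norm_num : (1 : ℝ) < 2)
  exact ⟨b, hb.le⟩

theorem nat_le_two_pow (N : ℕ) : (N : ℝ) ≤ 2 ^ N := by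
  exact_mod_cast (Nat.lt_two_pow_self (n := N)).le

/-- The constant is at most `2 ^ (b N ^ 8)`. -/
theorem cst_le (a m q : ℕ) {A₀ S : ℝ} (hA₀ : 1 ≤ A₀) (hS : 1 ≤ S) :
    ∃ b : ℕ, ∀ N : ℕ, m + 3 ≤ N →
      Cst a (3 * N + 2 * m + 6) (A₀ ^ (N + 1)) (((3 * N + 2 * m + 6 : ℕ) : ℝ) ^ (2 * q)) S
        ((2 : ℝ) ^ (N ^ 6))⁻¹ ≤ 2 ^ (b * N ^ 8) := by
  obtain ⟨b1, hb1⟩ := exists_le_two_pow A₀
  obtain ⟨b2, hb2⟩ := exists_le_two_pow S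
  refine ⟨36 * a * (5 + 2 * b1 + 8 * q + b2 + 1), fun N hN => ?_⟩
  have hN1 : 1 ≤ N := by omega
  have hN1' : (1 : ℝ) ≤ N := by exact_mod_cast hN1
  set J : ℕ := 3 * N + 2 * m + 6 with hJ
  have hJN : J ≤ 5 * N := by omega
  have hJR : (J : ℝ) ≤ 5 * N := by exact_mod_cast hJN
  have hJ1 : (1 : ℝ) ≤ J := by
    have : 1 ≤ J := by omega
    exact_mod_cast this
  have hNt := nat_le_two_pow N
  have h2N : (2 : ℝ) ≤ 2 ^ N := by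
    calc (2 : ℝ) = 2 ^ 1 := by norm_num
      _ ≤ 2 ^ N := pow_le_pow_right₀ (by norm_num) hN1
  -- the factors
  have e1 : 2 * (J : ℝ) ≤ 2 ^ (5 * N) := by
    have : (10 : ℝ) ≤ 2 ^ (4 * N) := by
      calc (10 : ℝ) ≤ 2 ^ 4 := by norm_num
        _ ≤ 2 ^ (4 * N) := pow_le_pow_right₀ (by norm_num) (by omega)
    calc 2 * (J : ℝ) ≤ 10 * N := by linarith
      _ ≤ 2 ^ (4 * N) * 2 ^ N := by gcongr
      _ = 2 ^ (5 * N) := by rw [← pow_add]; congr 1; ring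
  have e2 : A₀ ^ (N + 1) ≤ 2 ^ (2 * b1 * N) := by
    calc A₀ ^ (N + 1) ≤ (2 ^ b1) ^ (N + 1) := pow_le_pow_left₀ (by linarith) hb1 _
      _ = 2 ^ (b1 * (N + 1)) := by rw [← pow_mul]
      _ ≤ 2 ^ (2 * b1 * N) := pow_le_pow_right₀ (by norm_num) (by nlinarith)
  have e3 : (J : ℝ) ^ (2 * q) ≤ 2 ^ (8 * q * N) := by
    have h1 : (J : ℝ) ≤ 2 ^ (4 * N) := by
      calc (J : ℝ) ≤ 5 * N := hJR
        _ ≤ 2 ^ (3 * N) * 2 ^ N := by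
            have : (5 : ℝ) ≤ 2 ^ (3 * N) := by
              calc (5 : ℝ) ≤ 2 ^ 3 := by norm_num
                _ ≤ 2 ^ (3 * N) := pow_le_pow_right₀ (by norm_num) (by omega)
            gcongr
        _ = 2 ^ (4 * N) := by rw [← pow_add]; congr 1; ring
    calc (J : ℝ) ^ (2 * q) ≤ (2 ^ (4 * N)) ^ (2 * q) := pow_le_pow_left₀ (by linarith) h1 _
      _ = 2 ^ (8 * q * N) := by rw [← pow_mul]; congr 1; ring
  have e4 : S ≤ 2 ^ (b2 * N) := hb2.trans (pow_le_pow_right₀ (by norm_num) (by nlinarith))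
  have hbase : 2 * (J : ℝ) * A₀ ^ (N + 1) * (J : ℝ) ^ (2 * q) * S / ((2 : ℝ) ^ (N ^ 6))⁻¹ ≤
      2 ^ ((5 + 2 * b1 + 8 * q + b2 + 1) * N ^ 6) := by
    rw [div_inv_eq_mul]
    have hA0 : 0 ≤ A₀ ^ (N + 1) := by positivity
    calc 2 * (J : ℝ) * A₀ ^ (N + 1) * (J : ℝ) ^ (2 * q) * S * 2 ^ (N ^ 6)
        ≤ 2 ^ (5 * N) * 2 ^ (2 * b1 * N) * 2 ^ (8 * q * N) * 2 ^ (b2 * N) * 2 ^ (N ^ 6) := by
          gcongr
      _ = 2 ^ ((5 + 2 * b1 + 8 * q + b2) * N + N ^ 6) := by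
          rw [← pow_add, ← pow_add, ← pow_add, ← pow_add]
          congr 1
          ring
      _ ≤ 2 ^ ((5 + 2 * b1 + 8 * q + b2 + 1) * N ^ 6) := by
          apply pow_le_pow_right₀ (by norm_num)
          have : N ≤ N ^ 6 := Nat.le_self_pow (by norm_num) N
          nlinarith
  have hbase1 : 1 ≤ 2 * (J : ℝ) * A₀ ^ (N + 1) * (J : ℝ) ^ (2 * q) * S / ((2 : ℝ) ^ (N ^ 6))⁻¹ := by
    rw [div_inv_eq_mul]
    have h1 : (1 : ℝ) ≤ A₀ ^ (N + 1) := one_le_pow₀ hA₀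
    have h2 : (1 : ℝ) ≤ (J : ℝ) ^ (2 * q) := one_le_pow₀ hJ1
    have h3 : (1 : ℝ) ≤ 2 ^ (N ^ 6) := one_le_pow₀ (by norm_num)
    have h4 : (1 : ℝ) ≤ 2 * J := by linarith
    exact one_le_mul_of_one_le_of_one_le (one_le_mul_of_one_le_of_one_le
      (one_le_mul_of_one_le_of_one_le (one_le_mul_of_one_le_of_one_le h4 h1) h2) hS) h3
  unfold Cst
  calc (2 * (J : ℝ) * A₀ ^ (N + 1) * (J : ℝ) ^ (2 * q) * S / ((2 : ℝ) ^ (N ^ 6))⁻¹) ^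
        (a * (J + 1) ^ 2)
      ≤ (2 * (J : ℝ) * A₀ ^ (N + 1) * (J : ℝ) ^ (2 * q) * S / ((2 : ℝ) ^ (N ^ 6))⁻¹) ^
        (a * (6 * N) ^ 2) := by
        apply pow_le_pow_right₀ hbase1
        have : (J + 1) ^ 2 ≤ (6 * N) ^ 2 := Nat.pow_le_pow_left (by omega) 2
        exact Nat.mul_le_mul_left a this
    _ ≤ (2 ^ ((5 + 2 * b1 + 8 * q + b2 + 1) * N ^ 6)) ^ (a * (6 * N) ^ 2) :=
        pow_le_pow_left₀ (by linarith) hbase _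
    _ = 2 ^ (36 * a * (5 + 2 * b1 + 8 * q + b2 + 1) * N ^ 8) := by
        rw [← pow_mul]
        congr 1
        ring

/-- The choice of the order: `N = ⌊α ^ (1/9)⌋`. -/
noncomputable def NN (α : ℝ) : ℕ := ⌊α ^ (1 / 9 : ℝ)⌋₊

theorem NN_pow_le {α : ℝ} (hα : 0 ≤ α) : (NN α : ℝ) ^ 9 ≤ α := by
  have h1 : (NN α : ℝ) ≤ α ^ (1 / 9 : ℝ) := Nat.floor_le (Real.rpow_nonneg hα _)
  calc (NN α : ℝ) ^ 9 ≤ (α ^ (1 / 9 : ℝ)) ^ 9 := pow_le_pow_left₀ (Nat.cast_nonneg _) h1 9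
    _ = α := by
        rw [← Real.rpow_natCast, ← Real.rpow_mul hα]
        norm_num

theorem NN_tendsto : Tendsto NN atTop atTop :=
  tendsto_nat_floor_atTop.comp (tendsto_rpow_atTop (by norm_num))

theorem NN_lower : ∀ᶠ α : ℝ in atTop, 16 * α ^ (1 / 10 : ℝ) ≤ NN α := by
  have h1 : Tendsto (fun α : ℝ => α ^ (1 / 90 : ℝ)) atTop atTop :=
    tendsto_rpow_atTop (by norm_num)
  filter_upwards [h1.eventually_ge_atTop 17, eventually_ge_atTop 1] with α h hα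
  have hα0 : 0 < α := by linarith
  have h2 : α ^ (1 / 9 : ℝ) = α ^ (1 / 90 : ℝ) * α ^ (1 / 10 : ℝ) := by
    rw [← Real.rpow_add hα0]
    norm_num
  have h3 : 1 ≤ α ^ (1 / 10 : ℝ) := Real.one_le_rpow hα (by norm_num)
  have h4 : α ^ (1 / 9 : ℝ) < NN α + 1 := Nat.lt_floor_add_one _
  rw [h2] at h4
  nlinarith

theorem exp_le_two_rpow {x : ℝ} (hx : 0 ≤ x) : Real.exp x ≤ 2 ^ (2 * x) := by
  have h1 : Real.exp 1 ≤ 2 ^ (2 : ℝ) := by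
    have := Real.exp_one_lt_d9
    norm_num
    linarith
  calc Real.exp x = Real.exp 1 ^ x := by rw [← Real.exp_mul, one_mul]
    _ ≤ ((2 : ℝ) ^ (2 : ℝ)) ^ x := Real.rpow_le_rpow (Real.exp_pos 1).le h1 hx
    _ = 2 ^ (2 * x) := by rw [← Real.rpow_mul (by norm_num)]

theorem hkey (x : ℕ) (y : ℝ) (hxy : (x : ℝ) ≤ y) : (2 : ℝ) ^ x * 2 ^ (-y) ≤ 1 := by
  rw [← Real.rpow_natCast, ← Real.rpow_add (by norm_num)]
  apply Real.rpow_le_one_of_one_le_of_nonpos (by norm_num)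
  linarith

theorem E_eq (α : ℝ) : (2 : ℝ) ^ (-α / 4) = 2 ^ (-(α / 4)) := by
  congr 1
  ring

theorem E_pow (α : ℝ) (N : ℕ) : ((2 : ℝ) ^ (-α / 4)) ^ N = 2 ^ (-(α * (N / 4))) := by
  rw [← Real.rpow_natCast, ← Real.rpow_mul (by norm_num)]
  congr 1
  ring

section

variable {α : ℝ} {N c : ℕ}

theorem num1 {K A C : ℝ} {b c1 : ℕ} (hN : 1 ≤ N) (hcN : 8 * (c : ℝ) * (N : ℝ) ^ 8 ≤ α)
    (hK0 : 0 ≤ K) (hK : K ≤ 2 ^ (b * N ^ 8)) (hAC0 : 0 ≤ A * C) (hAC : A * C ≤ 2 ^ (c1 * N))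
    (hc : b + c1 ≤ c) : K * (A * (C * 2 ^ (-α / 4))) ≤ 1 := by
  have hNR : (1 : ℝ) ≤ N := by exact_mod_cast hN
  have hcR : (b : ℝ) + c1 ≤ c := by exact_mod_cast hc
  have hNN8 : (N : ℝ) ≤ (N : ℝ) ^ 8 := by
    calc (N : ℝ) = N ^ 1 := by ring
      _ ≤ (N : ℝ) ^ 8 := pow_le_pow_right₀ hNR (by norm_num)
  rw [show A * (C * (2 : ℝ) ^ (-α / 4)) = A * C * 2 ^ (-α / 4) by ring, E_eq]
  calc K * (A * C * 2 ^ (-(α / 4))) ≤ 2 ^ (b * N ^ 8) * (2 ^ (c1 * N) * 2 ^ (-(α / 4))) := by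
        gcongr
    _ = 2 ^ (b * N ^ 8 + c1 * N) * 2 ^ (-(α / 4)) := by
        rw [pow_add]
        ring
    _ ≤ 1 := by
        apply hkey
        push_cast
        have h2 : (c1 : ℝ) * N ≤ c1 * (N : ℝ) ^ 8 := by gcongr
        have h3 : ((b : ℝ) + c1) * (N : ℝ) ^ 8 ≤ c * (N : ℝ) ^ 8 := by gcongr
        have h4 : (0 : ℝ) ≤ c * (N : ℝ) ^ 8 := by positivity
        linarith

theorem num2 {A C : ℝ} (hα : 0 ≤ α) (hAC : 1 ≤ A * C) :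
    (2 : ℝ) ^ (-(α * ((N : ℝ) / 4 + 1))) ≤ (A * (C * 2 ^ (-α / 4))) ^ N := by
  rw [show A * (C * (2 : ℝ) ^ (-α / 4)) = A * C * 2 ^ (-α / 4) by ring, mul_pow, E_pow]
  have h1 : (1 : ℝ) ≤ (A * C) ^ N := one_le_pow₀ hAC
  have h3 : (2 : ℝ) ^ (-(α * ((N : ℝ) / 4 + 1))) ≤ 2 ^ (-(α * ((N : ℝ) / 4))) := by
    apply Real.rpow_le_rpow_of_exponent_le (by norm_num)
    linarith
  have h4 : (0 : ℝ) ≤ 2 ^ (-(α * ((N : ℝ) / 4))) := by positivity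
  nlinarith

theorem num3 {A C s₀ ε₀ : ℝ} {b3 c1 c2 : ℕ} (hN : 1 ≤ N) (hcN : 8 * (c : ℝ) * (N : ℝ) ^ 8 ≤ α)
    (hε₀ : 0 < ε₀) (hs₀ : 0 ≤ s₀) (hb3 : 2 * s₀ / ε₀ ≤ 2 ^ b3) (hA0 : 0 ≤ A)
    (hA : A ≤ 2 ^ (c2 * N)) (hAC0 : 0 ≤ A * C) (hAC : A * C ≤ 2 ^ (c1 * N))
    (hc : b3 + c2 + c1 ≤ c) : s₀ * (A * (2 * (A * (C * 2 ^ (-α / 4))))) ≤ ε₀ := by
  have hNR : (1 : ℝ) ≤ N := by exact_mod_cast hN
  have hcR : (b3 : ℝ) + c2 + c1 ≤ c := by exact_mod_cast hc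
  have hNN8 : (N : ℝ) ≤ (N : ℝ) ^ 8 := by
    calc (N : ℝ) = N ^ 1 := by ring
      _ ≤ (N : ℝ) ^ 8 := pow_le_pow_right₀ hNR (by norm_num)
  have e1 : 2 * s₀ ≤ 2 ^ b3 * ε₀ := by rwa [div_le_iff₀ hε₀] at hb3
  have e2 : (2 : ℝ) ^ b3 ≤ 2 ^ (b3 * N) := pow_le_pow_right₀ (by norm_num) (by nlinarith)
  have e3 : 2 * s₀ ≤ 2 ^ (b3 * N) * ε₀ := e1.trans (by gcongr)
  rw [E_eq]
  calc s₀ * (A * (2 * (A * (C * 2 ^ (-(α / 4))))))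
      = 2 * s₀ * (A * (A * C) * 2 ^ (-(α / 4))) := by ring
    _ ≤ (2 ^ (b3 * N) * ε₀) * (2 ^ (c2 * N) * 2 ^ (c1 * N) * 2 ^ (-(α / 4))) := by
        gcongr
    _ = ε₀ * (2 ^ ((b3 + c2 + c1) * N) * 2 ^ (-(α / 4))) := by
        rw [show (b3 + c2 + c1) * N = b3 * N + (c2 * N + c1 * N) by ring, pow_add, pow_add]
        ring
    _ ≤ ε₀ * 1 := by
        refine mul_le_mul_of_nonneg_left (hkey _ _ ?_) hε₀.le
        push_cast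
        have h2 : ((b3 : ℝ) + c2 + c1) * N ≤ c * (N : ℝ) ^ 8 := by gcongr
        have h4 : (0 : ℝ) ≤ c * (N : ℝ) ^ 8 := by positivity
        linarith
    _ = ε₀ := mul_one _

theorem num4 {K A C : ℝ} {b c1 : ℕ} (hN : 1 ≤ N) (hα : 1 ≤ α) (h16 : 16 * α ^ (1 / 10 : ℝ) ≤ N)
    (hcN : 8 * (c : ℝ) * (N : ℝ) ^ 8 ≤ α)
    (hK0 : 0 ≤ K) (hK : K ≤ 2 ^ (b * N ^ 8)) (hAC0 : 0 ≤ A * C) (hAC : A * C ≤ 2 ^ (c1 * N))
    (hc : b + c1 ≤ c) :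
    Real.exp (α ^ (11 / 10 : ℝ)) * (K * (A * (C * 2 ^ (-α / 4))) ^ N) ≤ 1 := by
  have hα0 : 0 ≤ α := by linarith
  have hNR : (1 : ℝ) ≤ N := by exact_mod_cast hN
  have hcR : (b : ℝ) + c1 ≤ c := by exact_mod_cast hc
  rw [show A * (C * (2 : ℝ) ^ (-α / 4)) = A * C * 2 ^ (-α / 4) by ring, mul_pow, E_pow]
  have h3 : α ^ (11 / 10 : ℝ) ≤ α * (N / 16) := by
    have : α ^ (11 / 10 : ℝ) = α * α ^ (1 / 10 : ℝ) := by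
      rw [show (11 / 10 : ℝ) = 1 + 1 / 10 by norm_num, Real.rpow_add (by linarith), Real.rpow_one]
    rw [this]
    apply mul_le_mul_of_nonneg_left _ hα0
    linarith
  have h4 : Real.exp (α ^ (11 / 10 : ℝ)) ≤ 2 ^ (α * (N / 8)) := by
    refine (exp_le_two_rpow (Real.rpow_nonneg hα0 _)).trans ?_
    apply Real.rpow_le_rpow_of_exponent_le (by norm_num)
    linarith
  have h5 : (A * C) ^ N ≤ 2 ^ (c1 * N ^ 2) := by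
    calc (A * C) ^ N ≤ (2 ^ (c1 * N)) ^ N := pow_le_pow_left₀ hAC0 hAC N
      _ = 2 ^ (c1 * N ^ 2) := by rw [← pow_mul]; congr 1; ring
  have h0 : 0 ≤ (A * C) ^ N := pow_nonneg hAC0 N
  calc Real.exp (α ^ (11 / 10 : ℝ)) * (K * ((A * C) ^ N * 2 ^ (-(α * (N / 4)))))
      ≤ 2 ^ (α * (N / 8)) * (2 ^ (b * N ^ 8) * (2 ^ (c1 * N ^ 2) * 2 ^ (-(α * (N / 4))))) := by
        gcongr
    _ = 2 ^ (b * N ^ 8 + c1 * N ^ 2) * (2 ^ (α * (N / 8)) * 2 ^ (-(α * (N / 4)))) := by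
        rw [pow_add]
        ring
    _ = 2 ^ (b * N ^ 8 + c1 * N ^ 2) * 2 ^ (-(α * (N / 8))) := by
        rw [← Real.rpow_add (by norm_num)]
        congr 2
        ring
    _ ≤ 1 := by
        apply hkey
        push_cast
        have h6 : (N : ℝ) ^ 2 ≤ (N : ℝ) ^ 8 := pow_le_pow_right₀ hNR (by norm_num)
        have h7 : (c1 : ℝ) * (N : ℝ) ^ 2 ≤ c1 * (N : ℝ) ^ 8 := by gcongr
        have h8 : ((b : ℝ) + c1) * (N : ℝ) ^ 8 ≤ c * (N : ℝ) ^ 8 := by gcongr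
        have h9' : α * 1 ≤ α * N := by gcongr
        linarith

theorem num5 {C₂ : ℝ} {b4 : ℕ} (hN : 1 ≤ N) (hcN : 8 * (c : ℝ) * (N : ℝ) ^ 8 ≤ α)
    (hb4 : C₂ ≤ 2 ^ b4) (hc : b4 + 2 ≤ c) :
    C₂ * (2 : ℝ) ^ (-α) ≤ ((2 : ℝ) ^ (N ^ 6 + N))⁻¹ := by
  have hNR : (1 : ℝ) ≤ N := by exact_mod_cast hN
  have hcR : (b4 : ℝ) + 2 ≤ c := by exact_mod_cast hc
  have hp : (0 : ℝ) < 2 ^ (N ^ 6 + N) := by positivity
  rw [← one_div, le_div_iff₀ hp]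
  calc C₂ * 2 ^ (-α) * 2 ^ (N ^ 6 + N) ≤ 2 ^ b4 * 2 ^ (-α) * 2 ^ (N ^ 6 + N) := by gcongr
    _ = 2 ^ (b4 + (N ^ 6 + N)) * 2 ^ (-α) := by
        rw [pow_add]
        ring
    _ ≤ 1 := by
        apply hkey
        push_cast
        have h3 : (N : ℝ) ^ 6 ≤ (N : ℝ) ^ 8 := pow_le_pow_right₀ hNR (by norm_num)
        have h4 : (1 : ℝ) ≤ (N : ℝ) ^ 8 := one_le_pow₀ hNR
        have h5 : (N : ℝ) ≤ (N : ℝ) ^ 8 := by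
          calc (N : ℝ) = N ^ 1 := by ring
            _ ≤ (N : ℝ) ^ 8 := pow_le_pow_right₀ hNR (by norm_num)
        have h6 : ((b4 : ℝ) + 2) * (N : ℝ) ^ 8 ≤ c * (N : ℝ) ^ 8 := by gcongr
        have h7 : (b4 : ℝ) * 1 ≤ b4 * (N : ℝ) ^ 8 := by gcongr
        have h8 : (0 : ℝ) ≤ c * (N : ℝ) ^ 8 := by positivity
        linarith

end

/-- All inequalities. -/
theorem numerics (a m q N₀ : ℕ) {A₀ S C ε₀ s₀ : ℝ} (C₂ : ℝ) (hA₀ : 1 ≤ A₀) (hS : 1 ≤ S)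
    (hC : 1 ≤ C) (hε₀ : 0 < ε₀) (hs₀ : 0 ≤ s₀) :
    ∀ᶠ α : ℝ in atTop, N₀ ≤ NN α ∧ (NN α : ℝ) ^ 9 ≤ α ∧ 3 * NN α + 2 * m + 6 ≤ 10 * NN α ∧
      Cst a (3 * NN α + 2 * m + 6) (A₀ ^ (NN α + 1))
        (((3 * NN α + 2 * m + 6 : ℕ) : ℝ) ^ (2 * q)) S ((2 : ℝ) ^ (NN α ^ 6))⁻¹ *
          (A₀ ^ (NN α + 1) * (C * 2 ^ (-α / 4))) ≤ 1 ∧
      (2 : ℝ) ^ (-(α * ((NN α : ℝ) / 4 + 1))) ≤ (A₀ ^ (NN α + 1) * (C * 2 ^ (-α / 4))) ^ NN α ∧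
      s₀ * (A₀ ^ (NN α + 1) * (2 * (A₀ ^ (NN α + 1) * (C * 2 ^ (-α / 4))))) ≤ ε₀ ∧
      Real.exp (α ^ (11 / 10 : ℝ)) *
        (Cst a (3 * NN α + 2 * m + 6) (A₀ ^ (NN α + 1))
          (((3 * NN α + 2 * m + 6 : ℕ) : ℝ) ^ (2 * q)) S ((2 : ℝ) ^ (NN α ^ 6))⁻¹ *
          (A₀ ^ (NN α + 1) * (C * 2 ^ (-α / 4))) ^ NN α) ≤ 1 ∧
      C₂ * (2 : ℝ) ^ (-α) ≤ ((2 : ℝ) ^ (NN α ^ 6 + NN α))⁻¹ := by
  obtain ⟨b, hb⟩ := cst_le a m q hA₀ hS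
  obtain ⟨b1, hb1⟩ := exists_le_two_pow A₀
  obtain ⟨b2, hb2⟩ := exists_le_two_pow C
  obtain ⟨b3, hb3⟩ := exists_le_two_pow (2 * s₀ / ε₀)
  obtain ⟨b4, hb4⟩ := exists_le_two_pow C₂
  obtain ⟨c, hc⟩ : ∃ c : ℕ, c = b + 4 * b1 + b2 + b3 + b4 + 2 := ⟨_, rfl⟩
  filter_upwards [NN_tendsto.eventually_ge_atTop (max N₀ (max (m + 3) (8 * c))), NN_lower,
    eventually_ge_atTop 1] with α hN hlow hα1
  have hN0 : N₀ ≤ NN α := (le_max_left _ _).trans hN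
  have hN1 : m + 3 ≤ NN α := (le_max_left _ _).trans ((le_max_right _ _).trans hN)
  have hN2 : 8 * c ≤ NN α := (le_max_right _ _).trans ((le_max_right _ _).trans hN)
  have hα0 : 0 ≤ α := by linarith
  have h9 := NN_pow_le hα0
  have hb' := hb (NN α) hN1
  generalize NN α = N at *
  have hNpos : 1 ≤ N := by omega
  have hNR : (1 : ℝ) ≤ N := by exact_mod_cast hNpos
  have hcR : 8 * (c : ℝ) ≤ N := by exact_mod_cast hN2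
  have hK0 : 0 ≤ Cst a (3 * N + 2 * m + 6) (A₀ ^ (N + 1))
      (((3 * N + 2 * m + 6 : ℕ) : ℝ) ^ (2 * q)) S ((2 : ℝ) ^ (N ^ 6))⁻¹ := by
    unfold Cst
    positivity
  have hA : A₀ ^ (N + 1) ≤ 2 ^ (2 * b1 * N) := by
    calc A₀ ^ (N + 1) ≤ (2 ^ b1) ^ (N + 1) := pow_le_pow_left₀ (by linarith) hb1 _
      _ = 2 ^ (b1 * (N + 1)) := by rw [← pow_mul]
      _ ≤ 2 ^ (2 * b1 * N) := pow_le_pow_right₀ (by norm_num) (by nlinarith)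
  have hA1 : (1 : ℝ) ≤ A₀ ^ (N + 1) := one_le_pow₀ hA₀
  have hC' : C ≤ 2 ^ (b2 * N) := hb2.trans (pow_le_pow_right₀ (by norm_num) (by nlinarith))
  have hAC : A₀ ^ (N + 1) * C ≤ 2 ^ ((2 * b1 + b2) * N) := by
    calc A₀ ^ (N + 1) * C ≤ 2 ^ (2 * b1 * N) * 2 ^ (b2 * N) := by gcongr
      _ = 2 ^ ((2 * b1 + b2) * N) := by rw [← pow_add]; congr 1; ring
  have hAC1 : 1 ≤ A₀ ^ (N + 1) * C := one_le_mul_of_one_le_of_one_le hA1 hC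
  have hcN8 : 8 * (c : ℝ) * (N : ℝ) ^ 8 ≤ α := by
    calc 8 * (c : ℝ) * (N : ℝ) ^ 8 ≤ N * (N : ℝ) ^ 8 := by gcongr
      _ = (N : ℝ) ^ 9 := by ring
      _ ≤ α := h9
  exact ⟨hN0, h9, by omega,
    num1 (c := c) hNpos hcN8 hK0 hb' (by linarith) hAC (by omega),
    num2 hα0 hAC1,
    num3 (c := c) hNpos hcN8 hε₀ hs₀ hb3 (by linarith) hA (by linarith) hAC (by omega),
    num4 (c := c) hNpos hα1 hlow hcN8 hK0 hb' (by linarith) hAC (by omega),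
    num5 (c := c) hNpos hcN8 hb4 (by omega)⟩

end Vale.Agent.P139.BN
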