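import Vale.Agent.P139.R2.H182.FinB

/-!
# P139 (row R10b): the final theorem from the rows
-/

set_option autoImplicit false

open Finset Filter Topology MeasureTheory
open scoped ENNReal

namespace Vale.Agent.P139.BN

open Vale.Agent.P139.A Vale.Agent.P139.A.WA

variable {d : ℕ}

/-- Nonresonance at `μ` with constant `γ`, order `N`. -/
def NRat (N : ℕ) (μ γ : ℝ) : Prop :=
  ∀ j ≤ 10 * N, ∀ (s : Fin j → Bool) (lv : Fin j → ℕ),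
      (∀ l, 1 ≤ lv l) → (univ.filter fun l => 4 ^ (N + 8) ≤ lv l).card ≤ 2 →
      ¬ (∀ ν : ℕ, (univ.filter fun l => s l = true ∧ lv l = ν).card =
        (univ.filter fun l => s l = false ∧ lv l = ν).card) →
      γ ≤ |∑ l, if s l then H212.om μ (lv l) else -H212.om μ (lv l)|

/-- Row R10a, part 1: the data of the normal form on boxes. -/
def ModesBox (d k : ℕ) (WW : ℝ → ℕ → Lat d → ℝ) : Prop :=
  ∃ S : ℝ, 1 ≤ S ∧ ∀ (α : ℝ) (N J : ℕ) (μ γ : ℝ), 0 ≤ α → 3 ≤ J → J ≤ 10 * N → NRat N μ γ →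
    ∀ L : ℕ, ∃ lev : {n // n ∈ box d L} → ℕ,
      Modes {n // n ∈ box d L} d J ((J : ℝ) ^ (2 * (k + d + 1))) γ (4 ^ (N + 8))
        ((2 : ℝ) ^ (-(α * ((N : ℝ) / 4 + 1)))) S (fun n => n.1) lev (fun n => Om μ n.1)
        (fun n => WW α N n.1) (fun n => (1 + sqNorm n.1) ^ (k + d + 1))

/-- Row R10a, part 2: the size of the datum, for one sample `γ`. -/
def DataBd (k : ℕ) (WW : ℝ → ℕ → Lat d → ℝ) (γ : Lat d → ℂ) : Prop :=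
  ∃ C : ℝ, 1 ≤ C ∧ ∃ α₁ : ℝ, ∀ α ≥ α₁, ∀ N : ℕ, (N : ℝ) ^ 9 ≤ α → ∀ B : Finset (Lat d),
    (0 : Lat d) ∉ B → nL B (fun n => WW α N n * (1 + sqNorm n) ^ (k + d + 1))
      (fun n => γ n * ((Real.sqrt (1 + sqNorm n) ^ (-α) : ℝ) : ℂ)) ≤ C * (2 : ℝ) ^ (-α / 4)

/-- The nonzero modes of the datum as an element of the weighted algebra. -/
theorem datum_elem (k : ℕ) {γ : Lat d → ℂ}
    (hs : Summable fun n => ‖γ n‖ * (Vale.Agent.P139.A.W (2 * d) n)⁻¹) :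
    ∃ D : ℝ, 0 ≤ D ∧ ∀ α : ℝ, ((k + 2 * d : ℕ) : ℝ) ≤ α → ∃ b : WA d k,
      (∀ n, coef b n = if n = 0 then 0 else γ n * ((Real.sqrt (1 + sqNorm n) ^ (-α) : ℝ) : ℂ)) ∧
      ‖b‖ ≤ D * (2 : ℝ) ^ (-α / 2) := by
  have hterm : ∀ n, 0 ≤ ‖γ n‖ * (Vale.Agent.P139.A.W (2 * d) n)⁻¹ := fun n =>
    mul_nonneg (norm_nonneg _) (inv_pos.2 (W_pos n)).le
  refine ⟨(2 : ℝ) ^ (k + 2 * d) * ∑' n, ‖γ n‖ * (Vale.Agent.P139.A.W (2 * d) n)⁻¹,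
    mul_nonneg (by positivity) (tsum_nonneg hterm), fun α hα => ?_⟩
  have hnorm : ∀ n, ‖γ n * ((Real.sqrt (1 + sqNorm n) ^ (-α) : ℝ) : ℂ)‖ =
      ‖γ n‖ * Real.sqrt (1 + sqNorm n) ^ (-α) := fun n => by
    rw [norm_mul, Complex.norm_real]
    rw [Real.norm_of_nonneg (Real.rpow_nonneg (Real.sqrt_nonneg _) _)]
  have hbound : ∀ n, Vale.Agent.P139.A.W k n *
      ‖(if n = 0 then 0 else γ n * ((Real.sqrt (1 + sqNorm n) ^ (-α) : ℝ) : ℂ) : ℂ)‖ ≤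
      (2 : ℝ) ^ (k + 2 * d) * (2 : ℝ) ^ (-α / 2) *
        (‖γ n‖ * (Vale.Agent.P139.A.W (2 * d) n)⁻¹) := by
    intro n
    by_cases hn : n = 0
    · rw [if_pos hn, norm_zero, mul_zero]
      exact mul_nonneg (by positivity) (hterm n)
    · rw [if_neg hn, hnorm]
      calc Vale.Agent.P139.A.W k n * (‖γ n‖ * Real.sqrt (1 + sqNorm n) ^ (-α))
          = ‖γ n‖ * (Vale.Agent.P139.A.W k n * Real.sqrt (1 + sqNorm n) ^ (-α)) := by ring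
        _ ≤ ‖γ n‖ * ((2 : ℝ) ^ (k + 2 * d) * (2 : ℝ) ^ (-α / 2) *
              (Vale.Agent.P139.A.W (2 * d) n)⁻¹) :=
            mul_le_mul_of_nonneg_left (weight_datum_le hα hn) (norm_nonneg _)
        _ = _ := by ring
  have hsum1 : Summable fun n => Vale.Agent.P139.A.W k n *
      ‖(if n = 0 then 0 else γ n * ((Real.sqrt (1 + sqNorm n) ^ (-α) : ℝ) : ℂ) : ℂ)‖ :=
    Summable.of_nonneg_of_le (fun n => mul_nonneg (W_pos n).le (norm_nonneg _)) hbound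
      (hs.mul_left _)
  refine ⟨mk _ hsum1, fun n => coef_mk _ hsum1 n, ?_⟩
  rw [norm_eq]
  have h3 : ∀ n, Vale.Agent.P139.A.W k n * ‖coef (mk _ hsum1 : WA d k) n‖ ≤
      (2 : ℝ) ^ (k + 2 * d) * (2 : ℝ) ^ (-α / 2) *
        (‖γ n‖ * (Vale.Agent.P139.A.W (2 * d) n)⁻¹) := by
    intro n
    rw [coef_mk]
    exact hbound n
  refine ((mk _ hsum1 : WA d k).summable.tsum_le_tsum h3 (hs.mul_left _)).trans (le_of_eq ?_)
  rw [tsum_mul_left]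
  ring

theorem pow_shift {x e : ℝ} (hx : 0 ≤ x) (he : 0 ≤ e) (he1 : e ≤ 1) (m : ℕ) :
    (x + e) ^ m - x ^ m ≤ e * (m * (x + 1) ^ m) := by
  induction m with
  | zero => simp
  | succ m ih =>
    have h1 : x ^ m ≤ (x + 1) ^ m := pow_le_pow_left₀ hx (by linarith) m
    have h2 : (x + e) * ((x + e) ^ m - x ^ m) ≤ (x + 1) * (e * (m * (x + 1) ^ m)) := by
      have h0 : 0 ≤ (x + e) ^ m - x ^ m :=
        sub_nonneg.2 (pow_le_pow_left₀ hx (by linarith) m)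
      have h3 : 0 ≤ e * (m * (x + 1) ^ m) := by positivity
      exact mul_le_mul (by linarith) ih h0 (by linarith)
    have h4 : e * x ^ m ≤ e * (x + 1) ^ (m + 1) := by
      apply mul_le_mul_of_nonneg_left _ he
      refine h1.trans ?_
      rw [pow_succ]
      nlinarith [pow_nonneg (by linarith : 0 ≤ x + 1) m]
    calc (x + e) ^ (m + 1) - x ^ (m + 1) = (x + e) * ((x + e) ^ m - x ^ m) + e * x ^ m := by ring
      _ ≤ (x + 1) * (e * (m * (x + 1) ^ m)) + e * (x + 1) ^ (m + 1) := add_le_add h2 h4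
      _ = e * (((m + 1 : ℕ) : ℝ) * (x + 1) ^ (m + 1)) := by push_cast; ring

theorem mu_shift {ρ e : ℝ} (he : 0 ≤ e) (he1 : e ≤ 1) (m : ℕ) :
    |m * (ρ ^ 2 + e) ^ m - m * ρ ^ (2 * m)| ≤ m * (m * (ρ ^ 2 + 1) ^ m) * e := by
  have h1 := pow_shift (sq_nonneg ρ) he he1 m
  have h0 : 0 ≤ (ρ ^ 2 + e) ^ m - (ρ ^ 2) ^ m :=
    sub_nonneg.2 (pow_le_pow_left₀ (sq_nonneg ρ) (by linarith) m)
  rw [pow_mul, ← mul_sub, abs_of_nonneg (mul_nonneg (Nat.cast_nonneg m) h0)]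
  calc (m : ℝ) * ((ρ ^ 2 + e) ^ m - (ρ ^ 2) ^ m) ≤ m * (e * (m * (ρ ^ 2 + 1) ^ m)) :=
        mul_le_mul_of_nonneg_left h1 (Nat.cast_nonneg m)
    _ = _ := by ring

/-- The deterministic part: one sample. -/
theorem final_det (hDyn : DynThm d) (hHam : HamThm d) {m k : ℕ} (hm : 1 ≤ m) (hLim : LimThm d k m)
    (WW : ℝ → ℕ → Lat d → ℝ) (h1 : ∀ α N n, 0 ≤ α → 1 ≤ WW α N n)
    (h2 : ∀ α N n, WW α N (-n) = WW α N n)
    (h3 : ∀ α N a b, 0 ≤ α → WW α N (a + b) ≤ WW α N a * WW α N b) (hM : ModesBox d k WW)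
    {γ : Lat d → ℂ} (hz : γ 0 ≠ 0)
    (hNR : ∃ N₀ : ℕ, ∀ N : ℕ, N₀ ≤ N → ∀ μ : ℝ,
      |μ - m * ‖γ 0‖ ^ (2 * m)| ≤ ((2 : ℝ) ^ (N ^ 6 + N))⁻¹ → NRat N μ ((2 : ℝ) ^ (N ^ 6))⁻¹)
    (hs : Summable fun n => ‖γ n‖ * (Vale.Agent.P139.A.W (2 * d) n)⁻¹) (hD : DataBd k WW γ) :
    ∃ α₁ : ℝ, ∀ α ≥ α₁, ∃ u : ℝ → Lat d → ℂ,
      u 0 = (fun n => γ n * ((Real.sqrt (1 + sqNorm n) ^ (-α) : ℝ) : ℂ)) ∧
      IsSolution d (2 * m + 1) k (Real.exp (α ^ (11 / 10 : ℝ))) u := by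
  obtain ⟨N₀, hNR⟩ := hNR
  set z : ℂ := γ 0 with hzdef
  have hρ : 0 < ‖z‖ := norm_pos_iff.2 hz
  obtain ⟨a, A₀, ε₀, hA₀, hε₀, hcore⟩ := core hDyn hHam hm hLim hρ
  obtain ⟨S, hS, hM⟩ := hM
  obtain ⟨C, hC, α₂, hD⟩ := hD
  obtain ⟨D, hD0, hb⟩ := datum_elem k hs
  have hlim : Tendsto (fun α : ℝ => D * (2 : ℝ) ^ (-α / 2)) atTop (𝓝 0) := by
    have h1 : Tendsto (fun α : ℝ => -α / 2) atTop atBot := by
      apply Tendsto.atBot_div_const (by norm_num)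
      exact tendsto_neg_atTop_atBot
    have h2 := (tendsto_rpow_atBot_of_base_gt_one 2 (by norm_num)).comp h1
    simpa using h2.const_mul D
  have hev := ((((numerics a m (k + d + 1) N₀ (s₀ := SS d k)
    (m * (m * (‖z‖ ^ 2 + 1) ^ m) * D ^ 2) hA₀ hS hC hε₀ (SS_nonneg d k)).and
    (hlim.eventually (gt_mem_nhds (show (0 : ℝ) < min ε₀ 1 by positivity)))).and
    (eventually_ge_atTop α₂)).and (eventually_ge_atTop ((k + 2 * d : ℕ) : ℝ)))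
  obtain ⟨α₁, hα₁⟩ := (hev.and (eventually_ge_atTop (0 : ℝ))).exists_forall_of_atTop
  refine ⟨α₁, fun α hα => ?_⟩
  obtain ⟨⟨⟨⟨⟨n0, n9, nJ, c1, c2, c3, c4, c5⟩, hsmall⟩, hαα₂⟩, hαk⟩, hα0⟩ := hα₁ α hα
  obtain ⟨b, hbc, hbn⟩ := hb α hαk
  generalize NN α = N at *
  -- the phase
  set ζ : ℂ := z / ‖z‖ with hζ
  have hzC : (‖z‖ : ℂ) ≠ 0 := by exact_mod_cast hρ.ne'
  have hζn : ‖ζ‖ = 1 := by
    rw [hζ, norm_div, Complex.norm_real, norm_norm, div_self hρ.ne']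
  have hζ0 : ζ ≠ 0 := by
    intro h
    rw [h] at hζn
    simp at hζn
  have hζz : ζ * ‖z‖ = z := by
    rw [hζ]
    field_simp
  set w₀ : WA d k := ζ⁻¹ • b with hw₀
  have hw₀n : ‖w₀‖ = ‖b‖ := by
    rw [hw₀, norm_smul, norm_inv, hζn, inv_one, one_mul]
  have hw₀c : ∀ n, coef w₀ n = ζ⁻¹ * coef b n := fun n => by rw [hw₀, coef_smul]
  have hw₀0 : coef w₀ 0 = 0 := by rw [hw₀c, hbc, if_pos rfl, mul_zero]
  have hwε : ‖w₀‖ ≤ ε₀ := by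
    rw [hw₀n]
    exact hbn.trans (hsmall.le.trans (min_le_left _ _))
  -- the mass
  set e : ℝ := H836.mass w₀ with he
  have he0 : 0 ≤ e := H836.mass_nonneg w₀
  have he2 : e ≤ D ^ 2 * (2 : ℝ) ^ (-α) := by
    refine (H836.mass_le w₀).trans ?_
    rw [hw₀n]
    calc ‖b‖ ^ 2 ≤ (D * (2 : ℝ) ^ (-α / 2)) ^ 2 := pow_le_pow_left₀ (norm_nonneg _) hbn 2
      _ = D ^ 2 * (2 : ℝ) ^ (-α) := by
          rw [mul_pow, ← Real.rpow_natCast ((2 : ℝ) ^ (-α / 2)), ← Real.rpow_mul (by norm_num)]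
          congr 2
          push_cast
          ring
  have he1 : e ≤ 1 := by
    refine (H836.mass_le w₀).trans ?_
    rw [hw₀n]
    have h4 : ‖b‖ ≤ 1 := hbn.trans (hsmall.le.trans (min_le_right _ _))
    exact pow_le_one₀ (norm_nonneg _) h4
  have hμ : |m * (‖z‖ ^ 2 + e) ^ m - m * ‖z‖ ^ (2 * m)| ≤ ((2 : ℝ) ^ (N ^ 6 + N))⁻¹ := by
    refine (mu_shift he0 he1 m).trans (le_trans ?_ c5)
    calc (m : ℝ) * (m * (‖z‖ ^ 2 + 1) ^ m) * e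
        ≤ m * (m * (‖z‖ ^ 2 + 1) ^ m) * (D ^ 2 * (2 : ℝ) ^ (-α)) :=
          mul_le_mul_of_nonneg_left he2 (by positivity)
      _ = _ := by ring
  have hnr := hNR N n0 _ hμ
  have hJ1 : (1 : ℝ) ≤ (((3 * N + 2 * m + 6 : ℕ) : ℝ)) ^ (2 * (k + d + 1)) := by
    apply one_le_pow₀
    have : 1 ≤ 3 * N + 2 * m + 6 := by omega
    exact_mod_cast this
  have hγ0 : (0 : ℝ) < ((2 : ℝ) ^ (N ^ 6))⁻¹ := by positivity
  have hγ1 : ((2 : ℝ) ^ (N ^ 6))⁻¹ ≤ 1 := inv_le_one_of_one_le₀ (one_le_pow₀ (by norm_num))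
  obtain ⟨u, hu0, hu⟩ := hcore N (3 * N + 2 * m + 6) rfl (A₀ ^ (N + 1))
    (((3 * N + 2 * m + 6 : ℕ) : ℝ) ^ (2 * (k + d + 1))) ((2 : ℝ) ^ (N ^ 6))⁻¹ S
    ((2 : ℝ) ^ (-(α * ((N : ℝ) / 4 + 1)))) (4 ^ (N + 8)) rfl hJ1 hγ0 hγ1 hS (WW α N)
    (fun n => h1 α N n hα0) (h2 α N) (fun a b => h3 α N a b hα0) w₀ hw₀0 hwε
    (fun L => hM α N (3 * N + 2 * m + 6) _ _ hα0 (by omega) nJ hnr L)
    (C * 2 ^ (-α / 4)) (by positivity) (fun L => by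
      refine le_trans (le_of_eq ?_) (hD α hαα₂ N n9 (box d L) (zero_notMem_box d L))
      unfold nL
      congr 1
      refine Finset.sum_congr rfl fun n hn => ?_
      have hn0 : n ≠ 0 := by
        rintro rfl
        exact zero_notMem_box d L hn
      rw [hw₀c, hbc, if_neg hn0, norm_mul, norm_inv, hζn, inv_one, one_mul])
    c1 c2 c3 (Real.exp (α ^ (11 / 10 : ℝ))) (Real.exp_pos _).le c4
  refine ⟨fun t n => ζ * coef (u t) n, ?_, isSolution_phase hu hζn⟩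
  funext n
  show ζ * coef (u 0) n = _
  rw [hu0, coef_add, coef_cst, hw₀c, hbc]
  by_cases hn : n = 0
  · subst hn
    simp only [if_true, mul_zero, add_zero]
    rw [hζz, sqNorm_zero]
    simp [hzdef]
  · rw [if_neg hn, if_neg hn, zero_add, ← mul_assoc, mul_inv_cancel₀ hζ0, one_mul]

/-- **Row R10b.** The final theorem from the rows. -/
theorem final_of (hNR : NRThm) (hDyn : DynThm d) (hHam : HamThm d) (hLim : ∀ k m, LimThm d k m)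
    (WW : ℝ → ℕ → Lat d → ℝ) (h1 : ∀ α N n, 0 ≤ α → 1 ≤ WW α N n)
    (h2 : ∀ α N n, WW α N (-n) = WW α N n)
    (h3 : ∀ α N a b, 0 ≤ α → WW α N (a + b) ≤ WW α N a * WW α N b)
    (hM : ∀ k, ModesBox d k WW)
    (hD : ∀ (k : ℕ) (Ω : Type) [MeasurableSpace Ω] (P : Measure Ω) (g : Lat d → Ω → ℂ),
      (∀ n, Measurable (g n)) → (∀ n, P.map (g n) = stdComplexGaussian) →
      ∀ᵐ ω ∂P, DataBd k WW (fun n => g n ω)) : FinalThm d := by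
  intro m k hm Ω _ P _ g hmeas hlaw
  have hN : ∀ᵐ ω ∂P, g 0 ω ≠ 0 ∧ ∃ N₀ : ℕ, ∀ N : ℕ, N₀ ≤ N → ∀ μ : ℝ,
      |μ - m * ‖g 0 ω‖ ^ (2 * m)| ≤ ((2 : ℝ) ^ (N ^ 6 + N))⁻¹ →
      NRat N μ ((2 : ℝ) ^ (N ^ 6))⁻¹ := by
    have h := hNR m hm
    rw [← hlaw 0] at h
    exact ae_of_ae_map (hmeas 0).aemeasurable h
  filter_upwards [hN, ae_summable hmeas hlaw, hD k Ω P g hmeas hlaw] with ω h0 hs hd
  obtain ⟨α₁, h⟩ := final_det hDyn hHam hm (hLim k m) WW h1 h2 h3 (hM k) (γ := fun n => g n ω)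
    h0.1 h0.2 hs hd
  refine ⟨α₁, fun α hα => ?_⟩
  exact lifespan_ge (Real.exp_pos _).le (h α hα)

end Vale.Agent.P139.BN
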