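import Vale.Agent.P139.R2.H182.FinC
import Vale.Agent.P139.R2.H959.R10a

/-!
# P139 (row R10): the final theorem from NRThm, DynThm, HamThm, LimThm
-/

set_option autoImplicit false

namespace Vale.Agent.P139.BN

open Vale.Agent.P139.A Vale.Agent.P139.A.WA

/-- The final theorem from the analytic rows. -/
theorem final_rows {d : ℕ} (hNR : NRThm) (hDyn : DynThm d) (hHam : HamThm d)
    (hLim : ∀ k m, LimThm d k m) : FinalThm d := by
  refine final_of hNR hDyn hHam hLim (fun α N n => WW α N n)
    (fun α N n hα => one_le_WW hα N n) (fun α N n => WW_neg α N n)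
    (fun α N a b hα => WW_add_le hα N a b) (fun k => ?_) (fun k Ω _ P g hm hg => ?_)
  · exact modes_box d k
  · exact ae_data P k g hm hg

end Vale.Agent.P139.BN
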