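import Vale.Agent.P139.R2.H182.FinQ
import Vale.Agent.P139.R2.H959.R10a
import Vale.Agent.P139.R2.H940.Data

/-!
# P139 (stage 2, row S4): the tail bound from NRTail, DynThm, HamQ, LimQ
-/

set_option autoImplicit false

namespace Vale.Agent.P139.BN

open Vale.Agent.P139.A Vale.Agent.P139.A.WA

theorem dataQ (d k : ℕ) : DataQ d k (fun α N n => WW α N n) :=
  ⟨CD d k, one_le_CD d k, AD d k, fun _ hα N _ _ hs _ hM B hB => data_bd k hs hM hα N B hB⟩

/-- The deterministic statement from the analytic rows. -/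
theorem detQ_rows {d : ℕ} (hDyn : DynThm d) (hHam : HamQ d) (hLim : ∀ k m, 1 ≤ m → LimQ d k m)
    (hNum : NumQ) : DetQ d :=
  detQ_of hDyn hHam hLim (fun α N n => WW α N n)
    (fun _ N n hα => one_le_WW hα N n) (fun α N n => WW_neg α N n)
    (fun _ N a b hα => WW_add_le hα N a b) (fun k => modes_box d k) (fun k => dataQ d k) hNum

/-- The tail bound from the analytic rows. -/
theorem finalQ_rows {d : ℕ} (hNR : NRTail) (hDyn : DynThm d) (hHam : HamQ d)
    (hLim : ∀ k m, 1 ≤ m → LimQ d k m) (hNum : NumQ) : FinalQ d :=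
  finalQ_of hNR (detQ_rows hDyn hHam hLim hNum)

end Vale.Agent.P139.BN
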