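import Vale.Agent.P139.R2.H182.FinC
import Vale.Agent.P139.R2.H556.Defs2
import Vale.Agent.P139.R2.H923.FinP

/-!
# P139 (stage 2): the deterministic core with explicit dependence on the zero mode
-/

set_option autoImplicit false

open MvPolynomial Finset
open scoped ComplexConjugate ENNReal

namespace Vale.Agent.P139.BN

open Vale.Agent.P139.A Vale.Agent.P139.A.WA

variable {d k : ℕ}

/-- **The deterministic core, quantitative in `c`.** -/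
theorem coreQ182 (hDyn : DynThm d) (hHam : HamQ d) {m : ℕ} (hm : 1 ≤ m) (hLim : LimQ d k m) :
    ∃ (a aH : ℕ) (A₁ : ℝ), 1 ≤ A₁ ∧ ∀ c : ℝ, 0 < c →
    ∀ (N J : ℕ), J = 3 * N + 2 * m + 6 → ∀ (w₀ : WA d k), coef w₀ 0 = 0 → ‖w₀‖ ≤ c / 32 →
    ∀ (A κ γ S θ : ℝ) (R : ℕ),
    A = (A₁ * (Real.sqrt (c ^ 2 + H836.mass w₀) + (Real.sqrt (c ^ 2 + H836.mass w₀))⁻¹)) ^
      (aH * (N + 1)) → 1 ≤ κ → 0 < γ → γ ≤ 1 → 1 ≤ S →
    ∀ (W : Lat d → ℝ), (∀ n, 1 ≤ W n) → (∀ n, W (-n) = W n) → (∀ a b, W (a + b) ≤ W a * W b) →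
    (∀ L : ℕ, ∃ lev : {n // n ∈ box d L} → ℕ, Modes {n // n ∈ box d L} d J κ γ R θ S
      (fun n => n.1) lev (fun n => Om (m * (c ^ 2 + H836.mass w₀) ^ m) n.1) (fun n => W n.1)
      (fun n => (1 + sqNorm n.1) ^ (k + d + 1))) →
    ∀ η : ℝ, 0 < η →
    (∀ L : ℕ, nL (box d L) (fun n => W n * (1 + sqNorm n) ^ (k + d + 1)) (coef w₀) ≤ η) →
    Cst a J A κ S γ * (A * η) ≤ 1 → θ ≤ (A * η) ^ N → SS d k * (A * (2 * (A * η))) ≤ c / 32 →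
    ∀ T : ℝ, 0 ≤ T → T * (Cst a J A κ S γ * (A * η) ^ N) ≤ 1 →
    ∃ u : ℝ → WA d k, u 0 = cst c + w₀ ∧
      IsSolution d (2 * m + 1) k T (fun t => coef (u t)) ∧
      ∀ t ∈ Set.Icc 0 T, ∃ ζ : ℂ, ‖ζ‖ = 1 ∧ ‖u t - ζ • cst c‖ ≤ 2 * (c / 16) := by
  obtain ⟨a, hDyn⟩ := hDyn
  obtain ⟨aH, A₁, hA₁, hHam⟩ := hHam m (k + d + 1) hm (by omega) (by omega)
  refine ⟨a, aH, A₁, hA₁, ?_⟩
  intro c hc N J hJ w₀ hw0 hwn A κ γ S θ R hA hκ hγ hγ1 hS W hW1 hWn hWs hM η hη hdat hc1 hc2 hc3 T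
    hT hc4
  have hmass0 := H836.mass_nonneg w₀
  have hρ : 0 < Real.sqrt (c ^ 2 + H836.mass w₀) := Real.sqrt_pos.2 (by positivity)
  have hA1 : 1 ≤ A := by
    rw [hA]
    apply one_le_pow₀
    have h1 : 1 ≤ Real.sqrt (c ^ 2 + H836.mass w₀) + (Real.sqrt (c ^ 2 + H836.mass w₀))⁻¹ := by
      rcases le_or_gt 1 (Real.sqrt (c ^ 2 + H836.mass w₀)) with h | h
      · have := inv_nonneg.2 hρ.le
        linarith
      · have := (one_le_inv₀ hρ).2 h.le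
        linarith
    exact one_le_mul_of_one_le_of_one_le hA₁ h1
  have hA0 : 0 < A := by linarith
  have hwr : ‖w₀‖ ≤ c / 16 / 2 := by linarith
  refine hLim c (c / 16) hc rfl w₀ hw0 hwr T (c / 16 / 2) hT fun L T' hT' w hw hinit hwR => ?_
  -- the Hamiltonian structure
  obtain ⟨H, hH0, hHc, hHz, hHr, hHd⟩ := hHam N (2 * N + 2 * m + 2) A rfl k c (H836.mass w₀) hc
    hmass0 hA (box d L) (fun n hn => neg_mem_box hn) (zero_notMem_box d L) W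
    (fun n => (1 + sqNorm n) ^ (k + d + 1)) hW1 hWn hWs (fun n => rfl)
  obtain ⟨z, ρ, hode, hrem, heq⟩ := hHd T' w hw
  obtain ⟨lev, hmod⟩ := hM L
  have hT0' : (0 : ℝ) ∈ Set.Icc 0 T' := ⟨le_rfl, hT'.1⟩
  have hz0 : nw (fun n : {n // n ∈ box d L} => W n.1 * (1 + sqNorm n.1) ^ (k + d + 1))
      (pt (z 0)) ≤ A * η := by
    refine ((heq 0 hT0').1).trans (mul_le_mul_of_nonneg_left ?_ hA0.le)
    have e1 : nL (box d L) (fun n => W n * (1 + sqNorm n) ^ (k + d + 1)) (coef (w 0)) =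
        nL (box d L) (fun n => W n * (1 + sqNorm n) ^ (k + d + 1)) (coef w₀) := by
      unfold nL
      congr 1
      exact Finset.sum_congr rfl fun n hn => by rw [hinit n hn]
    rw [e1]
    exact hdat L
  have hT'c : T' * (Cst a J A κ S γ * (A * η) ^ N) ≤ 1 := by
    refine le_trans (mul_le_mul_of_nonneg_right hT'.2 ?_) hc4
    have : 0 ≤ Cst a J A κ S γ := by unfold Cst; positivity
    positivity
  have hdyn := hDyn N J (2 * N + 2 * m + 2) (by omega) A κ γ S hA1 hκ hγ hγ1 hS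
    {n // n ∈ box d L} R θ (fun n => n.1) lev _ _ _ hmod H hH0 hHc hHz hHr (A * η) T'
    (by positivity) hT'.1 hc1 hc2 hT'c z ρ hode hrem hz0
  intro t ht
  have hsum : ∑ n ∈ box d L, Vale.Agent.P139.A.W (k + 1) n * ‖coef (w t) n‖ ≤ c / 16 / 2 := by
    refine (sum_le_nL (box d L) W hW1 (coef (w t)) k).trans ?_
    have h1 := (heq t ht).2
    have h2 := hdyn t ht
    have h3 : nL (box d L) (fun n => W n * (1 + sqNorm n) ^ (k + d + 1)) (coef (w t)) ≤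
        A * (2 * (A * η)) := h1.trans (mul_le_mul_of_nonneg_left h2 hA0.le)
    refine (mul_le_mul_of_nonneg_left h3 (SS_nonneg d k)).trans (hc3.trans ?_)
    linarith
  exact ⟨(norm_le_sum (hw.supp t ht)).trans hsum, hsum⟩

/-- The nonzero modes of the datum as an element of the weighted algebra, with the constant. -/
theorem datum_elemQ (k : ℕ) {γ : Lat d → ℂ} {M : ℝ}
    (hs : Summable fun n => ‖γ n‖ * (Vale.Agent.P139.A.W (2 * d) n)⁻¹)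
    (hM : ∑' n, ‖γ n‖ * (Vale.Agent.P139.A.W (2 * d) n)⁻¹ ≤ M) {α : ℝ}
    (hα : ((k + 2 * d : ℕ) : ℝ) ≤ α) : ∃ b : WA d k,
      (∀ n, coef b n = if n = 0 then 0 else γ n * ((Real.sqrt (1 + sqNorm n) ^ (-α) : ℝ) : ℂ)) ∧
      ‖b‖ ≤ (2 : ℝ) ^ (k + 2 * d) * M * (2 : ℝ) ^ (-α / 2) := by
  have hterm : ∀ n, 0 ≤ ‖γ n‖ * (Vale.Agent.P139.A.W (2 * d) n)⁻¹ := fun n =>
    mul_nonneg (norm_nonneg _) (inv_pos.2 (W_pos n)).le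
  have hnorm : ∀ n, ‖γ n * ((Real.sqrt (1 + sqNorm n) ^ (-α) : ℝ) : ℂ)‖ =
      ‖γ n‖ * Real.sqrt (1 + sqNorm n) ^ (-α) := fun n => by
    rw [norm_mul, Complex.norm_real]
    rw [Real.norm_of_nonneg (Real.rpow_nonneg (Real.sqrt_nonneg _) _)]
  have hbound : ∀ n, Vale.Agent.P139.A.W k n *
      ‖(if n = 0 then 0 else γ n * ((Real.sqrt (1 + sqNorm n) ^ (-α) : ℝ) : ℂ) : ℂ)‖ ≤
      (2 : ℝ) ^ (k + 2 * d) * (2 : ℝ) ^ (-α / 2) *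
        (‖γ n‖ * (Vale.Agent.P139.A.W (2 * d) n)⁻¹) := by
    intro n
    by_cases hn : n = 0
    · rw [if_pos hn, norm_zero, mul_zero]
      exact mul_nonneg (by positivity) (hterm n)
    · rw [if_neg hn, hnorm]
      calc Vale.Agent.P139.A.W k n * (‖γ n‖ * Real.sqrt (1 + sqNorm n) ^ (-α))
          = ‖γ n‖ * (Vale.Agent.P139.A.W k n * Real.sqrt (1 + sqNorm n) ^ (-α)) := by ring
        _ ≤ ‖γ n‖ * ((2 : ℝ) ^ (k + 2 * d) * (2 : ℝ) ^ (-α / 2) *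
              (Vale.Agent.P139.A.W (2 * d) n)⁻¹) :=
            mul_le_mul_of_nonneg_left (weight_datum_le hα hn) (norm_nonneg _)
        _ = _ := by ring
  have hsum1 : Summable fun n => Vale.Agent.P139.A.W k n *
      ‖(if n = 0 then 0 else γ n * ((Real.sqrt (1 + sqNorm n) ^ (-α) : ℝ) : ℂ) : ℂ)‖ :=
    Summable.of_nonneg_of_le (fun n => mul_nonneg (W_pos n).le (norm_nonneg _)) hbound
      (hs.mul_left _)
  refine ⟨mk _ hsum1, fun n => coef_mk _ hsum1 n, ?_⟩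
  rw [norm_eq]
  have h3 : ∀ n, Vale.Agent.P139.A.W k n * ‖coef (mk _ hsum1 : WA d k) n‖ ≤
      (2 : ℝ) ^ (k + 2 * d) * (2 : ℝ) ^ (-α / 2) *
        (‖γ n‖ * (Vale.Agent.P139.A.W (2 * d) n)⁻¹) := by
    intro n
    rw [coef_mk]
    exact hbound n
  refine ((mk _ hsum1 : WA d k).summable.tsum_le_tsum h3 (hs.mul_left _)).trans ?_
  rw [tsum_mul_left]
  calc (2 : ℝ) ^ (k + 2 * d) * (2 : ℝ) ^ (-α / 2) *
        ∑' n, ‖γ n‖ * (Vale.Agent.P139.A.W (2 * d) n)⁻¹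
      ≤ (2 : ℝ) ^ (k + 2 * d) * (2 : ℝ) ^ (-α / 2) * M := by gcongr
    _ = _ := by ring

/-- Row (B): the size of the datum with an explicit constant. -/
def DataQ (d k : ℕ) (WW : ℝ → ℕ → Lat d → ℝ) : Prop :=
  ∃ C : ℝ, 1 ≤ C ∧ ∃ α₁ : ℝ, ∀ α ≥ α₁, ∀ N : ℕ, (N : ℝ) ^ 9 ≤ α → ∀ γ : Lat d → ℂ,
    (Summable fun n => ‖γ n‖ * (Vale.Agent.P139.A.W (2 * d) n)⁻¹) →
    ∀ M : ℝ, ∑' n, ‖γ n‖ * (Vale.Agent.P139.A.W (2 * d) n)⁻¹ ≤ M →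
    ∀ B : Finset (Lat d), (0 : Lat d) ∉ B →
      nL B (fun n => WW α N n * (1 + sqNorm n) ^ (k + d + 1))
        (fun n => γ n * ((Real.sqrt (1 + sqNorm n) ^ (-α) : ℝ) : ℂ)) ≤
          C * M * (2 : ℝ) ^ (-α / 4)

/-- Row (N): the inequalities. -/
def NumQ : Prop :=
  ∀ (a aH m q : ℕ) (A₁ S Cd s₀ : ℝ), 1 ≤ A₁ → 1 ≤ S → 1 ≤ Cd → 0 ≤ s₀ →
  ∀ᶠ α : ℝ in Filter.atTop, ∀ c ρ A : ℝ, ((2 : ℝ) ^ NN α)⁻¹ ≤ c → c ≤ (2 : ℝ) ^ NN α → c ≤ ρ →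
    ρ ≤ 2 * c → A = (A₁ * (ρ + ρ⁻¹)) ^ (aH * (NN α + 1)) →
  (NN α : ℝ) ^ 9 ≤ α ∧ 3 * NN α + 2 * m + 6 ≤ 10 * NN α ∧
  Cst a (3 * NN α + 2 * m + 6) A (((3 * NN α + 2 * m + 6 : ℕ) : ℝ) ^ (2 * q)) S
    ((2 : ℝ) ^ (NN α ^ 6))⁻¹ * (A * (Cd * 2 ^ NN α * 2 ^ (-α / 4))) ≤ 1 ∧
  (2 : ℝ) ^ (-(α * ((NN α : ℝ) / 4 + 1))) ≤ (A * (Cd * 2 ^ NN α * 2 ^ (-α / 4))) ^ NN α ∧
  s₀ * (A * (2 * (A * (Cd * 2 ^ NN α * 2 ^ (-α / 4))))) ≤ c / 32 ∧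
  Real.exp (α ^ (11 / 10 : ℝ)) * (Cst a (3 * NN α + 2 * m + 6) A
    (((3 * NN α + 2 * m + 6 : ℕ) : ℝ) ^ (2 * q)) S ((2 : ℝ) ^ (NN α ^ 6))⁻¹ *
      (A * (Cd * 2 ^ NN α * 2 ^ (-α / 4))) ^ NN α) ≤ 1

/-- The small inequalities. -/
theorem small_ineq (D m : ℕ) : ∀ᶠ α : ℝ in Filter.atTop, ∀ c : ℝ, ((2 : ℝ) ^ NN α)⁻¹ ≤ c →
    c ≤ (2 : ℝ) ^ NN α →
    (2 : ℝ) ^ D * 2 ^ NN α * (2 : ℝ) ^ (-α / 2) ≤ c / 32 ∧
    (2 : ℝ) ^ D * 2 ^ NN α * (2 : ℝ) ^ (-α / 2) ≤ 1 ∧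
    m * (m * (c ^ 2 + 1) ^ m) * (((2 : ℝ) ^ D * 2 ^ NN α * (2 : ℝ) ^ (-α / 2)) ^ 2) ≤
      ((2 : ℝ) ^ (NN α ^ 6 + NN α))⁻¹ := by
  filter_upwards [NN_tendsto.eventually_ge_atTop (8 * (2 * D + 3 * m + 20)),
    Filter.eventually_ge_atTop 1] with α hN hα1
  have hα0 : 0 ≤ α := by linarith
  have h9 := NN_pow_le hα0
  generalize NN α = N at *
  intro c hc1 hc2
  have hNpos : 1 ≤ N := by omega
  have hNR : (1 : ℝ) ≤ N := by exact_mod_cast hNpos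
  set c0 : ℕ := 2 * D + 3 * m + 20 with hc0
  have hcR : 8 * (c0 : ℝ) ≤ N := by exact_mod_cast hN
  have hcN8 : 8 * (c0 : ℝ) * (N : ℝ) ^ 8 ≤ α := by
    calc 8 * (c0 : ℝ) * (N : ℝ) ^ 8 ≤ N * (N : ℝ) ^ 8 := by gcongr
      _ = (N : ℝ) ^ 9 := by ring
      _ ≤ α := h9
  have h1N8 : (1 : ℝ) ≤ (N : ℝ) ^ 8 := one_le_pow₀ hNR
  have hNN8 : (N : ℝ) ≤ (N : ℝ) ^ 8 := by
    calc (N : ℝ) = N ^ 1 := by ring
      _ ≤ (N : ℝ) ^ 8 := pow_le_pow_right₀ hNR (by norm_num)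
  have hN68 : (N : ℝ) ^ 6 ≤ (N : ℝ) ^ 8 := pow_le_pow_right₀ hNR (by norm_num)
  have hc0R : (c0 : ℝ) = 2 * D + 3 * m + 20 := by rw [hc0]; push_cast; ring
  have hDR : (0 : ℝ) ≤ D := Nat.cast_nonneg D
  have hmR : (0 : ℝ) ≤ m := Nat.cast_nonneg m
  have hE : (2 : ℝ) ^ (-α / 2) = 2 ^ (-(α / 2)) := by congr 1; ring
  have hkey' : (2 : ℝ) ^ (D + N + 5 + N) * 2 ^ (-(α / 2)) ≤ 1 := by
    apply hkey
    push_cast
    nlinarith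
  have hsm : (2 : ℝ) ^ D * 2 ^ N * (2 : ℝ) ^ (-α / 2) ≤ ((2 : ℝ) ^ N)⁻¹ / 32 := by
    have hp : (0 : ℝ) < 2 ^ N := by positivity
    rw [hE, ← one_div, div_div, le_div_iff₀ (by positivity)]
    calc (2 : ℝ) ^ D * 2 ^ N * 2 ^ (-(α / 2)) * (2 ^ N * 32)
        = (2 : ℝ) ^ (D + N + 5 + N) * 2 ^ (-(α / 2)) := by
          rw [pow_add, pow_add, pow_add]
          ring
      _ ≤ 1 := hkey'
  have hinv : ((2 : ℝ) ^ N)⁻¹ ≤ 1 := inv_le_one_of_one_le₀ (one_le_pow₀ (by norm_num))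
  refine ⟨hsm.trans (by linarith), hsm.trans (by linarith), ?_⟩
  -- the window
  have hc0' : 0 ≤ c := le_trans (by positivity) hc1
  have e1 : c ^ 2 + 1 ≤ 2 ^ (2 * N + 1) := by
    have : c ^ 2 ≤ (2 ^ N) ^ 2 := pow_le_pow_left₀ hc0' hc2 2
    have h2 : (1 : ℝ) ≤ (2 ^ N) ^ 2 := one_le_pow₀ (one_le_pow₀ (by norm_num))
    calc c ^ 2 + 1 ≤ (2 ^ N) ^ 2 + (2 ^ N) ^ 2 := by linarith
      _ = 2 ^ (2 * N + 1) := by rw [← pow_mul, pow_succ, mul_comm N 2]; ring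
  have e2 : (m : ℝ) ≤ 2 ^ m := nat_le_two_pow m
  have e3 : (m : ℝ) * (m * (c ^ 2 + 1) ^ m) ≤ 2 ^ (m + m + (2 * N + 1) * m) := by
    calc (m : ℝ) * (m * (c ^ 2 + 1) ^ m) ≤ 2 ^ m * (2 ^ m * (2 ^ (2 * N + 1)) ^ m) := by gcongr
      _ = 2 ^ (m + m + (2 * N + 1) * m) := by
          rw [← pow_mul, ← pow_add, ← pow_add]
          congr 1
          ring
  have e4 : ((2 : ℝ) ^ D * 2 ^ N * (2 : ℝ) ^ (-α / 2)) ^ 2 = 2 ^ (2 * D + 2 * N) * 2 ^ (-α) := by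
    rw [mul_pow, ← pow_add, ← pow_mul, ← Real.rpow_natCast ((2 : ℝ) ^ (-α / 2)),
      ← Real.rpow_mul (by norm_num)]
    congr 1
    · congr 1
      ring
    · congr 1
      push_cast
      ring
  have hp : (0 : ℝ) < 2 ^ (N ^ 6 + N) := by positivity
  rw [e4, ← one_div, le_div_iff₀ hp]
  calc (m : ℝ) * (m * (c ^ 2 + 1) ^ m) * (2 ^ (2 * D + 2 * N) * 2 ^ (-α)) * 2 ^ (N ^ 6 + N)
      ≤ 2 ^ (m + m + (2 * N + 1) * m) * (2 ^ (2 * D + 2 * N) * 2 ^ (-α)) * 2 ^ (N ^ 6 + N) := by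
        gcongr
    _ = 2 ^ (m + m + (2 * N + 1) * m + (2 * D + 2 * N) + (N ^ 6 + N)) * 2 ^ (-α) := by
        rw [pow_add, pow_add]
        ring
    _ ≤ 1 := by
        apply hkey
        push_cast
        have f1 : (m : ℝ) * N ≤ m * (N : ℝ) ^ 8 := by gcongr
        have f2 : (m : ℝ) * 1 ≤ m * (N : ℝ) ^ 8 := by gcongr
        have f3 : (D : ℝ) * 1 ≤ D * (N : ℝ) ^ 8 := by gcongr
        rw [hc0R] at hcN8
        nlinarith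

/-- **Row (D).** -/
theorem detQ_of (hDyn : DynThm d) (hHam : HamQ d) (hLim : ∀ k m, 1 ≤ m → LimQ d k m)
    (WW : ℝ → ℕ → Lat d → ℝ) (h1 : ∀ α N n, 0 ≤ α → 1 ≤ WW α N n)
    (h2 : ∀ α N n, WW α N (-n) = WW α N n)
    (h3 : ∀ α N a b, 0 ≤ α → WW α N (a + b) ≤ WW α N a * WW α N b)
    (hM : ∀ k, ModesBox d k WW) (hD : ∀ k, DataQ d k WW) (hNum : NumQ) : DetQ d := by
  intro m k hm
  obtain ⟨a, aH, A₁, hA₁, hcore⟩ := coreQ182 (k := k) hDyn hHam hm (hLim k m hm)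
  obtain ⟨S, hS, hM⟩ := hM k
  obtain ⟨C, hC, α₂, hD⟩ := hD k
  have hev := (((((hNum a aH m (k + d + 1) A₁ S C (SS d k) hA₁ hS hC (SS_nonneg d k)).and
    (small_ineq (k + 2 * d) m)).and (Filter.eventually_ge_atTop α₂)).and
    (Filter.eventually_ge_atTop ((k + 2 * d : ℕ) : ℝ))).and (Filter.eventually_ge_atTop (0 : ℝ)))
  obtain ⟨α₁, hα₁⟩ := hev.exists_forall_of_atTop
  refine ⟨α₁, fun α hα g hlo hhi hNR hs hsM => ?_⟩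
  obtain ⟨⟨⟨⟨hnum, hsmall⟩, hαα₂⟩, hαk⟩, hα0⟩ := hα₁ α hα
  obtain ⟨hs1, hs2, hs3⟩ := hsmall ‖g 0‖ hlo hhi
  obtain ⟨b, hbc, hbn⟩ := datum_elemQ k hs hsM hαk
  set z : ℂ := g 0 with hzdef
  have hρ : 0 < ‖z‖ := lt_of_lt_of_le (by positivity) hlo
  -- the phase
  set ζ : ℂ := z / ‖z‖ with hζ
  have hζn : ‖ζ‖ = 1 := by
    rw [hζ, norm_div, Complex.norm_real, norm_norm, div_self hρ.ne']
  have hζ0 : ζ ≠ 0 := by
    intro h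
    rw [h] at hζn
    simp at hζn
  have hζz : ζ * ‖z‖ = z := by
    have hzC : (‖z‖ : ℂ) ≠ 0 := by exact_mod_cast hρ.ne'
    rw [hζ]
    field_simp
  set w₀ : WA d k := ζ⁻¹ • b with hw₀
  have hw₀n : ‖w₀‖ = ‖b‖ := by
    rw [hw₀, norm_smul, norm_inv, hζn, inv_one, one_mul]
  have hw₀c : ∀ n, coef w₀ n = ζ⁻¹ * coef b n := fun n => by rw [hw₀, coef_smul]
  have hw₀0 : coef w₀ 0 = 0 := by rw [hw₀c, hbc, if_pos rfl, mul_zero]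
  have hwε : ‖w₀‖ ≤ ‖z‖ / 32 := by
    rw [hw₀n]
    exact hbn.trans hs1
  -- the mass
  have he0 : 0 ≤ H836.mass w₀ := H836.mass_nonneg w₀
  have he2 : H836.mass w₀ ≤ ((2 : ℝ) ^ (k + 2 * d) * 2 ^ NN α * (2 : ℝ) ^ (-α / 2)) ^ 2 := by
    refine (H836.mass_le w₀).trans ?_
    rw [hw₀n]
    exact pow_le_pow_left₀ (norm_nonneg _) hbn 2
  have he1 : H836.mass w₀ ≤ 1 := he2.trans (pow_le_one₀ (by positivity) hs2)
  have hec : H836.mass w₀ ≤ (‖z‖ / 32) ^ 2 :=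
    (H836.mass_le w₀).trans (pow_le_pow_left₀ (norm_nonneg _) hwε 2)
  have hr1 : ‖z‖ ≤ Real.sqrt (‖z‖ ^ 2 + H836.mass w₀) := by
    apply Real.le_sqrt_of_sq_le
    linarith
  have hr2 : Real.sqrt (‖z‖ ^ 2 + H836.mass w₀) ≤ 2 * ‖z‖ := by
    rw [Real.sqrt_le_left (by positivity)]
    nlinarith [sq_nonneg ‖z‖]
  obtain ⟨n9, nJ, c1, c2, c3, c4⟩ := hnum ‖z‖ (Real.sqrt (‖z‖ ^ 2 + H836.mass w₀)) _ hlo hhi hr1 hr2
    rfl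
  have hμ : |m * (‖z‖ ^ 2 + H836.mass w₀) ^ m - m * ‖z‖ ^ (2 * m)| ≤
      ((2 : ℝ) ^ (NN α ^ 6 + NN α))⁻¹ := by
    refine (mu_shift he0 he1 m).trans (le_trans ?_ hs3)
    exact mul_le_mul_of_nonneg_left he2 (by positivity)
  have hnr : NRat (NN α) (m * (‖z‖ ^ 2 + H836.mass w₀) ^ m) ((2 : ℝ) ^ (NN α ^ 6))⁻¹ := hNR _ hμ
  have hJ1 : (1 : ℝ) ≤ (((3 * NN α + 2 * m + 6 : ℕ) : ℝ)) ^ (2 * (k + d + 1)) := by
    apply one_le_pow₀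
    have : 1 ≤ 3 * NN α + 2 * m + 6 := by omega
    exact_mod_cast this
  have hγ0 : (0 : ℝ) < ((2 : ℝ) ^ (NN α ^ 6))⁻¹ := by positivity
  have hγ1 : ((2 : ℝ) ^ (NN α ^ 6))⁻¹ ≤ 1 := inv_le_one_of_one_le₀ (one_le_pow₀ (by norm_num))
  obtain ⟨u, hu0, hu, -⟩ := hcore ‖z‖ hρ (NN α) (3 * NN α + 2 * m + 6) rfl w₀ hw₀0 hwε _
    (((3 * NN α + 2 * m + 6 : ℕ) : ℝ) ^ (2 * (k + d + 1))) ((2 : ℝ) ^ (NN α ^ 6))⁻¹ S
    ((2 : ℝ) ^ (-(α * ((NN α : ℝ) / 4 + 1)))) (4 ^ (NN α + 8)) rfl hJ1 hγ0 hγ1 hS (WW α (NN α))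
    (fun n => h1 α (NN α) n hα0) (h2 α (NN α)) (fun a b => h3 α (NN α) a b hα0)
    (fun L => hM α (NN α) (3 * NN α + 2 * m + 6) _ _ hα0 (by omega) nJ hnr L)
    (C * 2 ^ NN α * 2 ^ (-α / 4)) (by positivity) (fun L => by
      refine le_trans (le_of_eq ?_)
        (hD α hαα₂ (NN α) n9 g hs _ hsM (box d L) (zero_notMem_box d L))
      unfold nL
      congr 1
      refine Finset.sum_congr rfl fun n hn => ?_
      have hn0 : n ≠ 0 := by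
        rintro rfl
        exact zero_notMem_box d L hn
      rw [hw₀c, hbc, if_neg hn0, norm_mul, norm_inv, hζn, inv_one, one_mul])
    c1 c2 c3 (Real.exp (α ^ (11 / 10 : ℝ))) (Real.exp_pos _).le c4
  refine lifespan_ge (Real.exp_pos _).le ⟨fun t n => ζ * coef (u t) n, ?_,
    isSolution_phase hu hζn⟩
  funext n
  show ζ * coef (u 0) n = _
  rw [hu0, coef_add, coef_cst, hw₀c, hbc]
  by_cases hn : n = 0
  · subst hn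
    simp only [if_true, mul_zero, add_zero]
    rw [hζz, sqNorm_zero]
    simp [hzdef]
  · rw [if_neg hn, if_neg hn, zero_add, ← mul_assoc, mul_inv_cancel₀ hζ0, one_mul]

end Vale.Agent.P139.BN
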