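import Vale.Agent.P139.R2.H182.FinD
import Vale.Agent.P139.R2.H182.FinE
import Vale.Agent.P139.R2.H240.NumQF
import Vale.Agent.P139.R2.H572.NR
import Vale.Agent.P139.R2.H959.NRT
import Vale.Agent.P139.R2.H628.DynAll

/-!
# P139: the final theorems, everything plugged in except the Hamiltonian and the limit rows
-/

set_option autoImplicit false

namespace Vale.Agent.P139.BNF

open Vale.Agent.P139.BN

/-- Stage 1: almost sure bound. -/
theorem stage1 {d : ℕ} (hHam : HamThm d) (hLim : ∀ k m, LimThm d k m) : FinalThm d :=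
  final_rows Vale.Agent.P139.R2.H572.nrThm (dynThm d) hHam hLim

/-- Stage 2: tail bound. -/
theorem stage2 {d : ℕ} (hHam : HamQ d) (hLim : ∀ k m, 1 ≤ m → LimQ d k m) : FinalQ d :=
  finalQ_rows BN.H959.nrTail (dynThm d) hHam hLim numQ

end Vale.Agent.P139.BNF
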