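import Vale.Agent.P139.R2.H182.FinF
import Vale.Agent.P139.R2.H556.Ham6
import Vale.Agent.P139.R2.H836.Lim

set_option autoImplicit false

namespace Vale.Agent.P139.BNF

open Vale.Agent.P139.BN

theorem finalThm (d : ℕ) : FinalThm d := stage1 (Vale.Agent.P139.BN.R7.hamThm d) (limThm d)

theorem finalQ (d : ℕ) : FinalQ d := stage2 (Vale.Agent.P139.BN.R7.hamQ d) (fun k m _ => limQ d k m)


end Vale.Agent.P139.BNF
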